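import Vale.Agent.P252.SepMain
import Vale.Agent.P252.RadMain

/-!
# P252, hand-in: the affine Bernstein problem for two structured classes of functions

1. Additively separable functions: closed (complete) graphs over arbitrary open convex domains.
2. Entire functions that are radial in one group of variables and additively separable in the
   remaining variables.
In both cases, in every dimension, the graph is an elliptic paraboloid.
-/

namespace Vale.Agent.Results.P252.BothStructured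

open Vale.Agent.P252 Matrix
open scoped ContDiff

/-- `u` is a quadratic polynomial with positive definite leading part. -/
def IsParaboloid {n : ℕ} (u : (Fin n → ℝ) → ℝ) : Prop :=
  ∃ (A : Matrix (Fin n) (Fin n) ℝ) (b : Fin n → ℝ) (c : ℝ), A.PosDef ∧
    ∀ x, u x = 1 / 2 * (x ⬝ᵥ (A *ᵥ x)) + b ⬝ᵥ x + c

theorem result (n : ℕ) :
    (∀ (Ω : Set (Fin n → ℝ)) (u : (Fin n → ℝ) → ℝ),
      IsOpen Ω → Convex ℝ Ω → Ω.Nonempty → ContDiffOn ℝ ∞ u Ω →
      (∀ x ∈ Ω, (hess u x).PosDef) → (∀ x ∈ Ω, AffineMaximalAt u x) →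
      IsClosed (graphOn Ω u) →
      (∃ f : Fin n → ℝ → ℝ, ∀ x ∈ Ω, u x = ∑ j, f j (x j)) →
      Ω = Set.univ ∧ IsParaboloid u) ∧
    (∀ u : (Fin n → ℝ) → ℝ,
      ContDiff ℝ ∞ u → (∀ x, (hess u x).PosDef) → (∀ x, AffineMaximalAt u x) →
      (∃ (S : Finset (Fin n)) (F : ℝ → ℝ) (f : Fin n → ℝ → ℝ), ContDiff ℝ ∞ F ∧
        ∀ x, u x = F (∑ i ∈ S, (x i) ^ 2) + ∑ l ∈ Sᶜ, f l (x l)) →
      IsParaboloid u) := by
  refine ⟨?_, ?_⟩
  · intro Ω u hΩo hΩc hΩn hu hpd hAM hcl hsep
    obtain ⟨f, hf⟩ := hsep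
    exact SepData.main ⟨hΩo, hΩc, hΩn, hu, hpd, hAM, hcl, hf⟩
  · intro u hu hpd hAM hform
    obtain ⟨S, F, f, hF, hsep⟩ := hform
    refine rad_entire u hu hpd hAM S (fun s => F (2 * s)) (hF.comp (by fun_prop)) f fun x => ?_
    rw [hsep x]
    congr 2
    unfold Vale.Agent.P252.sq
    ring

end Vale.Agent.Results.P252.BothStructured
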