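import Vale.Agent.P252.RadMain

/-!
# P252, hand-in: entire affine maximal graphs that are radial in one group of variables and
additively separable in the remaining variables are paraboloids
-/

namespace Vale.Agent.Results.P252.RadialSeparableEntire

open Vale.Agent.P252 Matrix
open scoped ContDiff

/-- Let `u ∈ C^∞(ℝ^n)` have positive definite Hessian and solve the affine maximal equation on
`ℝ^n`.  If for some set `S` of coordinates
`u(x) = F(∑_{i ∈ S} x_i^2) + ∑_{l ∉ S} f_l(x_l)` with `F ∈ C^∞(ℝ)` and arbitrary functions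
`f_l`, then `u` is a quadratic polynomial with positive definite leading part.
(`S` = all coordinates: radial functions; `S = ∅`: additively separable functions.) -/
theorem result {n : ℕ} (u : (Fin n → ℝ) → ℝ)
    (hu : ContDiff ℝ ∞ u)
    (hpd : ∀ x, (hess u x).PosDef)
    (hAM : ∀ x, AffineMaximalAt u x)
    (hform : ∃ (S : Finset (Fin n)) (F : ℝ → ℝ) (f : Fin n → ℝ → ℝ), ContDiff ℝ ∞ F ∧
      ∀ x, u x = F (∑ i ∈ S, (x i) ^ 2) + ∑ l ∈ Sᶜ, f l (x l)) :
    ∃ (A : Matrix (Fin n) (Fin n) ℝ) (b : Fin n → ℝ) (c : ℝ), A.PosDef ∧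
      ∀ x, u x = 1 / 2 * (x ⬝ᵥ (A *ᵥ x)) + b ⬝ᵥ x + c := by
  obtain ⟨S, F, f, hF, hsep⟩ := hform
  refine rad_entire u hu hpd hAM S (fun s => F (2 * s)) (hF.comp (by fun_prop)) f fun x => ?_
  rw [hsep x]
  congr 2
  unfold Vale.Agent.P252.sq
  ring

end Vale.Agent.Results.P252.RadialSeparableEntire
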