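import Vale.Agent.P252.SepMain

/-!
# P252, hand-in: the affine Bernstein problem for additively separable functions

Complete (closed) graphs over arbitrary open convex domains, every dimension.
-/

namespace Vale.Agent.Results.P252.SeparableComplete

open Vale.Agent.P252 Matrix
open scoped ContDiff

/-- Let `Ω ⊆ ℝ^n` be nonempty, open and convex and let `u ∈ C^∞(Ω)` have positive definite
Hessian, solve the affine maximal equation on `Ω` and have a graph which is closed in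
`ℝ^n × ℝ`.  If `u` is additively separable on `Ω`, then `Ω = ℝ^n` and the graph of `u` is an
elliptic paraboloid. -/
theorem result {n : ℕ} (Ω : Set (Fin n → ℝ)) (u : (Fin n → ℝ) → ℝ)
    (hΩo : IsOpen Ω) (hΩc : Convex ℝ Ω) (hΩn : Ω.Nonempty)
    (hu : ContDiffOn ℝ ∞ u Ω)
    (hpd : ∀ x ∈ Ω, (hess u x).PosDef)
    (hAM : ∀ x ∈ Ω, AffineMaximalAt u x)
    (hcl : IsClosed (graphOn Ω u))
    (hsep : ∃ f : Fin n → ℝ → ℝ, ∀ x ∈ Ω, u x = ∑ j, f j (x j)) :
    Ω = Set.univ ∧ ∃ (A : Matrix (Fin n) (Fin n) ℝ) (b : Fin n → ℝ) (c : ℝ), A.PosDef ∧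
      ∀ x, u x = 1 / 2 * (x ⬝ᵥ (A *ᵥ x)) + b ⬝ᵥ x + c := by
  obtain ⟨f, hf⟩ := hsep
  exact SepData.main ⟨hΩo, hΩc, hΩn, hu, hpd, hAM, hcl, hf⟩

end Vale.Agent.Results.P252.SeparableComplete
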