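import Vale.Agent.P252.SepMain

/-!
# P252, hand-in: entire additively separable affine maximal graphs are paraboloids
-/

namespace Vale.Agent.Results.P252.SeparableEntire

open Vale.Agent.P252 Matrix
open scoped ContDiff

/-- Every `u ∈ C^∞(ℝ^n)` with positive definite Hessian which solves the affine maximal
equation on `ℝ^n` and is additively separable is a quadratic polynomial with positive definite
leading part. -/
theorem result {n : ℕ} (u : (Fin n → ℝ) → ℝ)
    (hu : ContDiff ℝ ∞ u)
    (hpd : ∀ x, (hess u x).PosDef)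
    (hAM : ∀ x, AffineMaximalAt u x)
    (hsep : ∃ f : Fin n → ℝ → ℝ, ∀ x, u x = ∑ j, f j (x j)) :
    ∃ (A : Matrix (Fin n) (Fin n) ℝ) (b : Fin n → ℝ) (c : ℝ), A.PosDef ∧
      ∀ x, u x = 1 / 2 * (x ⬝ᵥ (A *ᵥ x)) + b ⬝ᵥ x + c := by
  obtain ⟨f, hf⟩ := hsep
  have hcl : IsClosed (graphOn Set.univ u) := by
    have h : graphOn Set.univ u = {p : (Fin n → ℝ) × ℝ | p.2 = u p.1} := by
      ext p; simp [graphOn]
    rw [h]
    exact isClosed_eq continuous_snd (hu.continuous.comp continuous_fst)
  exact (SepData.main (Ω := Set.univ) (u := u) (f := f)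
    ⟨isOpen_univ, convex_univ, Set.univ_nonempty, hu.contDiffOn, fun x _ => hpd x,
      fun x _ => hAM x, hcl, fun x _ => hf x⟩).2

end Vale.Agent.Results.P252.SeparableEntire
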